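import Vale.Agent.P088.R2.H551.V.Defs

/-!
# P088, two arbitrary pairs: calculus of matrix functions, derivatives off a regular open set
-/

open MeasureTheory Set
open scoped ContDiff Matrix

noncomputable section

namespace Vale.Agent.P088.PJ.H935

open Vale.Agent.P088.LR Vale.Agent.P088.LR.U Vale.Agent.P088.LR.H158

variable {n N : ℕ}

/-! ## Smoothness -/

theorem spdm {P : MC n N} (hP : SmC P) (i : Fin n) : SmC (pdm i P) := fun a b =>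
  contDiff_pd (hP a b) i

theorem sadd {P Q : MC n N} (hP : SmC P) (hQ : SmC Q) : SmC fun x => P x + Q x := fun a b =>
  (hP a b).add (hQ a b)

theorem ssub {P Q : MC n N} (hP : SmC P) (hQ : SmC Q) : SmC fun x => P x - Q x := fun a b =>
  (hP a b).sub (hQ a b)

theorem sneg {P : MC n N} (hP : SmC P) : SmC fun x => -P x := fun a b => (hP a b).neg

theorem ssum {ι : Type*} {u : Finset ι} {P : ι → MC n N} (hP : ∀ j, SmC (P j)) :
    SmC fun x => ∑ j ∈ u, P j x := by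
  intro a b
  simp only [Matrix.sum_apply]
  exact ContDiff.sum fun j _ => hP j a b

theorem ssmul {c : V n → ℝ} (hc : ContDiff ℝ ∞ c) {P : MC n N} (hP : SmC P) :
    SmC fun x => (c x : ℂ) • P x := by
  intro a b
  simp only [Matrix.smul_apply, smul_eq_mul]
  exact (Complex.ofRealCLM.contDiff.comp hc).mul (hP a b)

theorem scst (C : Matrix (Fin N) (Fin N) ℂ) : SmC (fun _ : V n => C) := fun _ _ =>
  contDiff_const

theorem smul' {P Q : MC n N} (hP : SmC P) (hQ : SmC Q) : SmC fun x => P x * Q x := SmC_mul hP hQ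

/-! ## Derivatives -/

theorem dadd {P Q : MC n N} (hP : SmC P) (hQ : SmC Q) (i : Fin n) (x : V n) :
    pdm i (fun x => P x + Q x) x = pdm i P x + pdm i Q x := by
  ext a b
  exact pd_add (dfa (hP a b) x) (dfa (hQ a b) x) i

theorem dsub {P Q : MC n N} (hP : SmC P) (hQ : SmC Q) (i : Fin n) (x : V n) :
    pdm i (fun x => P x - Q x) x = pdm i P x - pdm i Q x := by
  ext a b
  exact pd_sub (dfa (hP a b) x) (dfa (hQ a b) x) i

theorem dsum {ι : Type*} {u : Finset ι} {P : ι → MC n N} (hP : ∀ j, SmC (P j)) (i : Fin n)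
    (x : V n) : pdm i (fun x => ∑ j ∈ u, P j x) x = ∑ j ∈ u, pdm i (P j) x := by
  ext a b
  simp only [pdm, Matrix.of_apply, Matrix.sum_apply]
  exact pd_sum (fun j _ => dfa (hP j a b) x) i

theorem dmul {P Q : MC n N} (hP : SmC P) (hQ : SmC Q) (i : Fin n) (x : V n) :
    pdm i (fun x => P x * Q x) x = pdm i P x * Q x + P x * pdm i Q x := pdm_mul hP hQ i x

theorem pd_ofReal {c : V n → ℝ} {x : V n} (hc : DifferentiableAt ℝ c x) (i : Fin n) :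
    pd i (fun y => (c y : ℂ)) x = ((pd i c x : ℝ) : ℂ) :=
  pd_clm Complex.ofRealCLM hc i

theorem dsmul {c : V n → ℝ} (hc : ContDiff ℝ ∞ c) {P : MC n N} (hP : SmC P) (i : Fin n)
    (x : V n) : pdm i (fun x => (c x : ℂ) • P x) x =
      ((pd i c x : ℝ) : ℂ) • P x + (c x : ℂ) • pdm i P x := by
  have hc' : ContDiff ℝ ∞ fun y => (c y : ℂ) := Complex.ofRealCLM.contDiff.comp hc
  ext a b
  simp only [pdm, Matrix.of_apply, Matrix.smul_apply, smul_eq_mul, Matrix.add_apply]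
  exact (pd_mul (dfa hc' x) (dfa (hP a b) x) i).trans (by rw [pd_ofReal (dfa hc x) i])

theorem dcongr {Ω : Set (V n)} (hΩ : IsOpen Ω) {P Q : MC n N} (h : ∀ x ∈ Ω, P x = Q x) {x : V n}
    (hx : x ∈ Ω) (i : Fin n) : pdm i P x = pdm i Q x := pdm_congr hΩ h hx i

/-! ## Functions vanishing off a regular open set -/

theorem pd_off {F : Type*} [NormedAddCommGroup F] [NormedSpace ℝ F] {Ω : Set (V n)}
    (hi : interior (closure Ω) = Ω) {f : V n → F} (hf : ContDiff ℝ ∞ f)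
    (h0 : ∀ x ∉ Ω, f x = 0) (i : Fin n) {x : V n} (hx : x ∉ Ω) : pd i f x = 0 := by
  have hcl : IsClosed {x : V n | fderiv ℝ f x = 0} := by
    have hc : Continuous (fderiv ℝ f) := hf.continuous_fderiv (by simp)
    exact isClosed_eq hc continuous_const
  have h1 : (closure Ω)ᶜ ⊆ {x : V n | fderiv ℝ f x = 0} := by
    intro y hy
    have h2 : f =ᶠ[nhds y] fun _ => 0 := by
      filter_upwards [isClosed_closure.isOpen_compl.mem_nhds hy] with v hv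
      exact h0 v fun h => hv (subset_closure h)
    show fderiv ℝ f y = 0
    rw [h2.fderiv_eq]
    simp
  have h2 : x ∈ closure ((closure Ω)ᶜ) := by
    rw [closure_compl, hi]
    exact hx
  have h3 : fderiv ℝ f x = 0 := hcl.closure_subset_iff.2 h1 h2
  unfold pd
  rw [h3]
  rfl

theorem doff {Ω : Set (V n)} (hi : interior (closure Ω) = Ω) {P : MC n N}
    (hP : SmC P) (h0 : ∀ x ∉ Ω, P x = 0) (i : Fin n) {x : V n} (hx : x ∉ Ω) :
    pdm i P x = 0 := by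
  ext a b
  simp only [pdm, Matrix.of_apply, Matrix.zero_apply]
  exact pd_off hi (hP a b) (fun y hy => by rw [h0 y hy]; rfl) i hx

theorem doff2 {Ω : Set (V n)} (hi : interior (closure Ω) = Ω) {P Q : MC n N}
    (hP : SmC P) (hQ : SmC Q) (h0 : ∀ x ∉ Ω, P x = Q x) (i : Fin n) {x : V n} (hx : x ∉ Ω) :
    pdm i P x = pdm i Q x := by
  have h1 := doff hi (ssub hP hQ) (fun y hy => by rw [h0 y hy, sub_self]) i hx
  rw [dsub hP hQ] at h1
  exact sub_eq_zero.1 h1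

/-! ## Reduced data -/

theorem sTP {s : MF n} (hs : SmM s) {P : MC n N} (hP : SmC P) (i j : Fin n) : SmC (TP s P i j) :=
  ssmul (hs i j) hP

theorem skp {s : MF n} (hs : SmM s) {G : Fin n → MC n N} (hG : ∀ i, SmC (G i)) (i : Fin n) :
    SmC (kp s G i) := ssum fun j => ssmul (hs i j) (hG j)

section RPs

variable {k : ℕ} {δ : ℝ} {Ω : Set (V n)} {s₁ s₂ : MF n} {P₁ P₂ : MC n N}
  {G₁ G₂ Y D : Fin n → MC n N}

theorem sT1 (h : RP k δ Ω s₁ s₂ P₁ P₂ G₁ G₂ Y D) (i j : Fin n) : SmC (TP s₁ P₁ i j) :=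
  sTP h.d₁.ss h.d₁.sP i j

theorem sT2 (h : RP k δ Ω s₁ s₂ P₁ P₂ G₁ G₂ Y D) (i j : Fin n) : SmC (TP s₂ P₂ i j) :=
  sTP h.d₂.ss h.d₂.sP i j

theorem sk1 (h : RP k δ Ω s₁ s₂ P₁ P₂ G₁ G₂ Y D) (i : Fin n) : SmC (kp s₁ G₁ i) :=
  skp h.d₁.ss h.d₁.sG i

theorem sk2 (h : RP k δ Ω s₁ s₂ P₁ P₂ G₁ G₂ Y D) (i : Fin n) : SmC (kp s₂ G₂ i) :=
  skp h.d₂.ss h.d₂.sG i

theorem sZ (h : RP k δ Ω s₁ s₂ P₁ P₂ G₁ G₂ Y D) (i j : Fin n) : SmC (Zt s₁ s₂ P₁ P₂ i j) :=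
  ssub (sT2 h i j) (sT1 h i j)

theorem sq' (h : RP k δ Ω s₁ s₂ P₁ P₂ G₁ G₂ Y D) (i : Fin n) : SmC (Qt s₁ s₂ G₁ G₂ i) :=
  ssub (sk2 h i) (sk1 h i)

theorem oZ (h : RP k δ Ω s₁ s₂ P₁ P₂ G₁ G₂ Y D) (i j : Fin n) {x : V n} (hx : x ∉ Ω) :
    Zt s₁ s₂ P₁ P₂ i j x = 0 := by
  simp only [Zt, TP, h.os x hx, h.oP x hx, sub_self]

theorem oq (h : RP k δ Ω s₁ s₂ P₁ P₂ G₁ G₂ Y D) (i : Fin n) {x : V n} (hx : x ∉ Ω) :
    Qt s₁ s₂ G₁ G₂ i x = 0 := by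
  simp only [Qt, kp, h.os x hx, h.oG _ x hx, sub_self]

theorem bl0_sub : bl0 n ⊆ HY.Bs n 2 := by
  intro x hx
  have h1 : HY.sq x ≤ 1 / 4 := hx
  show HY.sq x < 2 ^ 2
  linarith

theorem omega_sub (h : RP k δ Ω s₁ s₂ P₁ P₂ G₁ G₂ Y D) {x : V n} (hx : x ∈ Ω) : x ∈ HY.Bs n 2 :=
  bl0_sub (h.sub hx)

/-- `∑_j (Z_ij ∂_j Y_a + T₂_ij ∂_j D_a)`. -/
def Fl (s₁ s₂ : MF n) (P₁ P₂ : MC n N) (Y D : Fin n → MC n N) (a i : Fin n) : MC n N := fun x =>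
  ∑ j, (Zt s₁ s₂ P₁ P₂ i j x * pdm j (Y a) x + TP s₂ P₂ i j x * pdm j (D a) x)

/-- `E_a = ∑_i ∂_i (∑_j (Z_ij ∂_j Y_a + T₂_ij ∂_j D_a)) + ∑_i κ₂_i ∂_i D_a`. -/
def Ea (s₁ s₂ : MF n) (P₁ P₂ : MC n N) (G₂ Y D : Fin n → MC n N) (a : Fin n) : MC n N :=
  fun x => ∑ i, pdm i (Fl s₁ s₂ P₁ P₂ Y D a i) x + ∑ i, kp s₂ G₂ i x * pdm i (D a) x

theorem sFl (h : RP k δ Ω s₁ s₂ P₁ P₂ G₁ G₂ Y D) (a i : Fin n) :
    SmC (Fl s₁ s₂ P₁ P₂ Y D a i) :=
  ssum fun j => sadd (smul' (sZ h i j) (spdm (h.sY a) j)) (smul' (sT2 h i j) (spdm (h.sD a) j))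

theorem sEa (h : RP k δ Ω s₁ s₂ P₁ P₂ G₁ G₂ Y D) (a : Fin n) :
    SmC (Ea s₁ s₂ P₁ P₂ G₂ Y D a) :=
  sadd (ssum fun i => spdm (sFl h a i) i) (ssum fun i => smul' (sk2 h i) (spdm (h.sD a) i))

theorem oFl (h : RP k δ Ω s₁ s₂ P₁ P₂ G₁ G₂ Y D) (a i : Fin n) {x : V n} (hx : x ∉ Ω) :
    Fl s₁ s₂ P₁ P₂ Y D a i x = 0 := by
  unfold Fl
  refine Finset.sum_eq_zero fun j _ => ?_
  rw [oZ h i j hx, doff h.reg (h.sD a) (h.oD a) j hx, zero_mul, mul_zero, add_zero]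

theorem oEa (h : RP k δ Ω s₁ s₂ P₁ P₂ G₁ G₂ Y D) (a : Fin n) {x : V n} (hx : x ∉ Ω) :
    Ea s₁ s₂ P₁ P₂ G₂ Y D a x = 0 := by
  unfold Ea
  rw [Finset.sum_eq_zero fun i _ => doff h.reg (sFl h a i) (fun y hy => oFl h a i hy) i hx,
    Finset.sum_eq_zero fun i _ => by rw [doff h.reg (h.sD a) (h.oD a) i hx, mul_zero], add_zero]

/-- The gauge identity `∑_l q_l ∂_l Y_a = - E_a`, everywhere. -/
theorem gid (h : RP k δ Ω s₁ s₂ P₁ P₂ G₁ G₂ Y D) (a : Fin n) (x : V n) :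
    ∑ l, Qt s₁ s₂ G₁ G₂ l x * pdm l (Y a) x = -Ea s₁ s₂ P₁ P₂ G₂ Y D a x := by
  by_cases hx : x ∈ Ω
  · have e1 := h.hY a x (omega_sub h hx)
    have e2 := h.gi a x hx
    unfold MoC at e1 e2
    have e3 : ∀ i, pdm i (fun y => ∑ j, TP s₂ P₂ i j y * pdm j (fun z => Y a z + D a z) y) x =
        pdm i (fun y => ∑ j, TP s₁ P₁ i j y * pdm j (Y a) y) x
          + pdm i (Fl s₁ s₂ P₁ P₂ Y D a i) x := by
      intro i
      rw [← dadd (ssum fun j => smul' (sT1 h i j) (spdm (h.sY a) j)) (sFl h a i)]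
      congr 1
      funext y
      rw [Fl, ← Finset.sum_add_distrib]
      refine Finset.sum_congr rfl fun j _ => ?_
      rw [dadd (h.sY a) (h.sD a), Zt]
      noncomm_ring
    have e4 : ∀ i, kp s₂ G₂ i x * pdm i (fun z => Y a z + D a z) x =
        kp s₁ G₁ i x * pdm i (Y a) x + (Qt s₁ s₂ G₁ G₂ i x * pdm i (Y a) x
          + kp s₂ G₂ i x * pdm i (D a) x) := by
      intro i
      rw [dadd (h.sY a) (h.sD a), Qt]
      noncomm_ring
    simp only [e3, e4, Finset.sum_add_distrib] at e2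
    unfold Ea
    linear_combination (norm := abel) e2 - e1
  · rw [oEa h a hx, neg_zero]
    exact Finset.sum_eq_zero fun l _ => by rw [oq h l hx, zero_mul]

/-- The gauge identity `q_b = - ∑_a E_a Γ_ab`, everywhere. -/
theorem gidb (h : RP k δ Ω s₁ s₂ P₁ P₂ G₁ G₂ Y D) {Γ : Fin n → Fin n → MC n N}
    (hΓ : ∀ l b x, ∑ a, pdm l (Y a) x * Γ a b x = if l = b then 1 else 0) (b : Fin n) (x : V n) :
    Qt s₁ s₂ G₁ G₂ b x = -∑ a, Ea s₁ s₂ P₁ P₂ G₂ Y D a x * Γ a b x := by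
  have e1 : ∀ a, Ea s₁ s₂ P₁ P₂ G₂ Y D a x * Γ a b x =
      -∑ l, Qt s₁ s₂ G₁ G₂ l x * (pdm l (Y a) x * Γ a b x) := by
    intro a
    rw [← neg_neg (Ea s₁ s₂ P₁ P₂ G₂ Y D a x), ← gid h a x, neg_mul, Finset.sum_mul]
    simp only [mul_assoc]
  simp only [e1, Finset.sum_neg_distrib, neg_neg]
  rw [Finset.sum_comm]
  simp only [← Finset.mul_sum, hΓ, mul_ite, mul_one, mul_zero, Finset.sum_ite_eq',
    Finset.mem_univ, if_true]

end RPs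

end Vale.Agent.P088.PJ.H935
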