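import Vale.Agent.P088.R2.H935.V.Cal

/-!
# P088, two arbitrary pairs: entrywise bounds of the reduced data
-/

open MeasureTheory Set
open scoped ContDiff Matrix

noncomputable section

namespace Vale.Agent.P088.PJ.H935

open Vale.Agent.P088.LR Vale.Agent.P088.LR.U Vale.Agent.P088.LR.H158

variable {n N : ℕ}

/-! ## Entrywise bounds of matrices -/

/-- All entries are bounded by `c`. -/
def Eb (c : ℝ) (A : Matrix (Fin N) (Fin N) ℂ) : Prop := ∀ a b, ‖A a b‖ ≤ c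

theorem Eb.mono {c d : ℝ} {A : Matrix (Fin N) (Fin N) ℂ} (h : Eb c A) (hcd : c ≤ d) : Eb d A :=
  fun a b => (h a b).trans hcd

theorem Eb.add {c d : ℝ} {A B : Matrix (Fin N) (Fin N) ℂ} (hA : Eb c A) (hB : Eb d B) :
    Eb (c + d) (A + B) := fun a b => (norm_add_le _ _).trans (add_le_add (hA a b) (hB a b))

theorem Eb.sub {c d : ℝ} {A B : Matrix (Fin N) (Fin N) ℂ} (hA : Eb c A) (hB : Eb d B) :
    Eb (c + d) (A - B) := fun a b => (norm_sub_le _ _).trans (add_le_add (hA a b) (hB a b))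

theorem Eb.neg {c : ℝ} {A : Matrix (Fin N) (Fin N) ℂ} (hA : Eb c A) : Eb c (-A) := fun a b => by
  rw [Matrix.neg_apply, norm_neg]
  exact hA a b

theorem Eb.sum {ι : Type*} (u : Finset ι) {c : ℝ} {A : ι → Matrix (Fin N) (Fin N) ℂ}
    (hA : ∀ j, Eb c (A j)) : Eb (u.card * c) (∑ j ∈ u, A j) := by
  intro a b
  rw [Matrix.sum_apply]
  refine (norm_sum_le _ _).trans ((Finset.sum_le_sum fun j _ => hA j a b).trans ?_)
  rw [Finset.sum_const, nsmul_eq_mul]

theorem Eb.sumn {c : ℝ} {A : Fin n → Matrix (Fin N) (Fin N) ℂ}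
    (hA : ∀ j, Eb c (A j)) : Eb (n * c) (∑ j, A j) := by
  have h := Eb.sum Finset.univ hA
  rwa [Finset.card_univ, Fintype.card_fin] at h

theorem Eb.mul {c d : ℝ} {A B : Matrix (Fin N) (Fin N) ℂ} (hc : 0 ≤ c) (hA : Eb c A)
    (hB : Eb d B) : Eb (N * (c * d)) (A * B) := by
  intro a b
  rw [Matrix.mul_apply]
  refine (norm_sum_le _ _).trans ((Finset.sum_le_sum fun j _ => ?_).trans
    (b := ∑ _j : Fin N, c * d) ?_)
  · rw [norm_mul]
    exact mul_le_mul (hA a j) (hB j b) (norm_nonneg _) hc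
  · rw [Finset.sum_const, nsmul_eq_mul, Finset.card_univ, Fintype.card_fin]

theorem Eb.smul {c r : ℝ} {A : Matrix (Fin N) (Fin N) ℂ} {t : ℝ} (ht : |t| ≤ r) (hA : Eb c A) :
    Eb (r * c) ((t : ℂ) • A) := by
  intro a b
  rw [Matrix.smul_apply, smul_eq_mul, norm_mul, Complex.norm_real, Real.norm_eq_abs]
  exact mul_le_mul ht (hA a b) (norm_nonneg _) ((abs_nonneg _).trans ht)

theorem Eb.one : Eb 1 (1 : Matrix (Fin N) (Fin N) ℂ) := by
  intro a b
  rcases eq_or_ne a b with rfl | h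
  · rw [Matrix.one_apply_eq, norm_one]
  · rw [Matrix.one_apply_ne h, norm_zero]
    exact zero_le_one

theorem Eb.zero {c : ℝ} (hc : 0 ≤ c) : Eb c (0 : Matrix (Fin N) (Fin N) ℂ) := by
  intro a b
  rw [Matrix.zero_apply, norm_zero]
  exact hc

/-! ## Bounds from `Cl` -/

theorem cl_zer {F : Type*} [NormedAddCommGroup F] [NormedSpace ℝ F] {k : ℕ} {δ : ℝ} {f : V n → F}
    (h : Cl k δ f) (x : V n) : ‖f x‖ ≤ δ := by
  have h1 := h 0 (Nat.zero_le _) x
  rwa [norm_iteratedFDeriv_zero] at h1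

theorem cl_pos {F : Type*} [NormedAddCommGroup F] [NormedSpace ℝ F] {k : ℕ} {δ : ℝ} {f : V n → F}
    (h : Cl k δ f) : 0 ≤ δ := (norm_nonneg _).trans (cl_zer h 0)

theorem cl_mono {F : Type*} [NormedAddCommGroup F] [NormedSpace ℝ F] {k k' : ℕ} {δ δ' : ℝ}
    {f : V n → F} (h : Cl k δ f) (hk : k' ≤ k) (hδ : δ ≤ δ') : Cl k' δ' f :=
  fun l hl x => (h l (hl.trans hk) x).trans hδ

theorem cl_lin {F G : Type*} [NormedAddCommGroup F] [NormedSpace ℝ F] [NormedAddCommGroup G]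
    [NormedSpace ℝ G] (L : F →L[ℝ] G) (hL : ‖L‖ ≤ 1) {k : ℕ} {δ : ℝ} {f : V n → F}
    (hf : ContDiff ℝ ∞ f) (h : Cl k δ f) : Cl k δ (fun y => L (f y)) := by
  intro l hl x
  have e : iteratedFDeriv ℝ l (fun y => L (f y)) x =
      L.compContinuousMultilinearMap (iteratedFDeriv ℝ l f x) :=
    L.iteratedFDeriv_comp_left (hf.contDiffAt) (by exact_mod_cast le_top)
  rw [e]
  refine (L.norm_compContinuousMultilinearMap_le _).trans ?_
  calc ‖L‖ * ‖iteratedFDeriv ℝ l f x‖ ≤ 1 * δ :=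
        mul_le_mul hL (h l hl x) (norm_nonneg _) zero_le_one
    _ = δ := one_mul _

theorem cl_pd {F : Type*} [NormedAddCommGroup F] [NormedSpace ℝ F] {k : ℕ} {δ : ℝ}
    {f : V n → F} (hf : ContDiff ℝ ∞ f) (h : Cl (k + 1) δ f) (j : Fin n) : Cl k δ (pd j f) := by
  have hL : ‖(ContinuousLinearMap.apply ℝ F (Pi.single j (1 : ℝ)) : (V n →L[ℝ] F) →L[ℝ] F)‖
      ≤ 1 := by
    refine ContinuousLinearMap.opNorm_le_bound _ zero_le_one fun T => ?_
    rw [ContinuousLinearMap.apply_apply, one_mul]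
    refine (T.le_opNorm _).trans ?_
    rw [Pi.norm_single, norm_one, mul_one]
  have hfd : ContDiff ℝ ∞ (fderiv ℝ f) := hf.fderiv_right (m := ∞) (by simp)
  have h1 : Cl k δ (fderiv ℝ f) := by
    intro l hl x
    rw [norm_iteratedFDeriv_fderiv]
    exact h (l + 1) (by omega) x
  exact cl_lin _ hL hfd h1

theorem eb_of {k : ℕ} {δ : ℝ} {P : MC n N} (h : ClC k δ P) (x : V n) : Eb δ (P x) := fun a b =>
  cl_zer (h a b) x

theorem clC_pd {k : ℕ} {δ : ℝ} {P : MC n N} (hP : SmC P) (h : ClC (k + 1) δ P) (i : Fin n) :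
    ClC k δ (pdm i P) := fun a b => cl_pd (hP a b) (h a b) i

theorem clC_mono {k k' : ℕ} {δ δ' : ℝ} {P : MC n N} (h : ClC k δ P) (hk : k' ≤ k)
    (hδ : δ ≤ δ') : ClC k' δ' P := fun a b => cl_mono (h a b) hk hδ

/-- Bound of a matrix function near `1`. -/
theorem eb_near {k : ℕ} {δ : ℝ} {P : MC n N} (h : ClC k δ (fun x => P x - 1)) (x : V n) :
    Eb (1 + δ) (P x) := by
  have h1 := Eb.one.add (eb_of h x)
  rwa [add_sub_cancel] at h1

/-- The derivative of a matrix function near `1`. -/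
theorem eb_near1 {k : ℕ} {δ : ℝ} {P : MC n N} (hP : SmC P) (h : ClC (k + 1) δ (fun x => P x - 1))
    (i : Fin n) : ClC k δ (pdm i P) := by
  have h1 := clC_pd (ssub hP (scst 1)) h i
  have e : pdm i (fun x => P x - 1) = pdm i P := by
    funext x
    rw [dsub hP (scst 1), pdm_const, sub_zero]
  rwa [e] at h1

theorem pd_coo (a i : Fin n) (x : V n) :
    pd i (fun y : V n => y a) x = if i = a then 1 else 0 := by
  unfold pd
  have h1 : HasFDerivAt (fun y : V n => y a) (ContinuousLinearMap.proj (R := ℝ) a) x :=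
    (ContinuousLinearMap.proj (R := ℝ) (φ := fun _ : Fin n => ℝ) a).hasFDerivAt
  rw [h1.fderiv, ContinuousLinearMap.proj_apply, Pi.single_apply]
  simp only [eq_comm]

theorem scoo (a : Fin n) : SmC (fun x : V n => (x a : ℂ) • (1 : Matrix (Fin N) (Fin N) ℂ)) :=
  ssmul (c := fun x => x a) (contDiff_apply ℝ ℝ a) (scst 1)

theorem dcoo (a i : Fin n) (x : V n) :
    pdm i (fun x : V n => (x a : ℂ) • (1 : Matrix (Fin N) (Fin N) ℂ)) x =
      if i = a then 1 else 0 := by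
  rw [dsmul (c := fun x => x a) (contDiff_apply ℝ ℝ a) (scst 1), pdm_const, smul_zero, add_zero,
    pd_coo]
  split_ifs <;> simp

/-- The derivatives of `Y_a`. -/
theorem cY1 {k : ℕ} {δ : ℝ} {Y : MC n N} {a : Fin n} (hY : SmC Y)
    (h : ClC (k + 1) δ (fun x => Y x - (x a : ℂ) • 1)) (i : Fin n) :
    ClC k δ (fun x => pdm i Y x - if i = a then 1 else 0) := by
  have h1 := clC_pd (ssub hY (scoo a)) h i
  have e : pdm i (fun x => Y x - (x a : ℂ) • 1) = fun x => pdm i Y x - if i = a then 1 else 0 := by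
    funext x
    rw [dsub hY (scoo a), dcoo]
  rwa [e] at h1

theorem eb_ite (i a : Fin n) : Eb 1 (if i = a then (1 : Matrix (Fin N) (Fin N) ℂ) else 0) := by
  split_ifs
  · exact Eb.one
  · exact Eb.zero zero_le_one

theorem eb_dY {k : ℕ} {δ : ℝ} {Y : MC n N} {a : Fin n} (hY : SmC Y)
    (h : ClC (k + 1) δ (fun x => Y x - (x a : ℂ) • 1)) (i : Fin n) (x : V n) :
    Eb (1 + δ) (pdm i Y x) := by
  have h1 := (eb_ite (N := N) i a).add (eb_of (cY1 hY h i) x)
  rwa [add_sub_cancel] at h1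

/-- The second derivatives of `Y_a`. -/
theorem cY2 {k : ℕ} {δ : ℝ} {Y : MC n N} {a : Fin n} (hY : SmC Y)
    (h : ClC (k + 2) δ (fun x => Y x - (x a : ℂ) • 1)) (i j : Fin n) :
    ClC k δ (pdm i (pdm j Y)) := by
  have h0 := cY1 hY h j
  have h1 := clC_pd (ssub (spdm hY j) (scst _)) h0 i
  have e : pdm i (fun x => pdm j Y x - if j = a then 1 else 0) = pdm i (pdm j Y) := by
    funext x
    rw [dsub (spdm hY j) (scst _), pdm_const, sub_zero]
  rwa [e] at h1

/-! ## Bounds of the tensors -/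

theorem abs_s {k : ℕ} {δ : ℝ} {s : MF n} {i j : Fin n}
    (h : Cl k δ (fun x => s x i j - (1 : Matrix (Fin n) (Fin n) ℝ) i j)) (x : V n) :
    |s x i j| ≤ 1 + δ := by
  have h1 := cl_zer h x
  have h2 : |(1 : Matrix (Fin n) (Fin n) ℝ) i j| ≤ 1 := by
    rcases eq_or_ne i j with rfl | h
    · rw [Matrix.one_apply_eq, abs_one]
    · rw [Matrix.one_apply_ne h, abs_zero]
      exact zero_le_one
  rw [Real.norm_eq_abs] at h1
  calc |s x i j| = |(1 : Matrix (Fin n) (Fin n) ℝ) i j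
        + (s x i j - (1 : Matrix (Fin n) (Fin n) ℝ) i j)| := by rw [add_sub_cancel]
    _ ≤ _ := (abs_add_le _ _).trans (add_le_add h2 h1)

theorem abs_ds {k : ℕ} {δ : ℝ} {s : MF n} (hs : SmM s) {i j : Fin n}
    (h : Cl (k + 1) δ (fun x => s x i j - (1 : Matrix (Fin n) (Fin n) ℝ) i j)) (l : Fin n) :
    Cl k δ (pd l fun x => s x i j) := by
  have h1 := cl_pd ((hs i j).sub contDiff_const) h l
  have e : pd l (fun x => s x i j - (1 : Matrix (Fin n) (Fin n) ℝ) i j) =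
      pd l fun x => s x i j := by
    funext x
    rw [pd_sub (dfa (hs i j) x) (dfa contDiff_const x), pd_const, sub_zero]
  rwa [e] at h1

variable {k : ℕ} {δ : ℝ} {Ω : Set (V n)} {s : MF n} {P : MC n N} {G : Fin n → MC n N}

theorem eb_TP (h : Dt k δ Ω s P G) (i j : Fin n) (x : V n) :
    Eb ((1 + δ) * (1 + δ)) (TP s P i j x) := Eb.smul (abs_s (h.cs i j) x) (eb_near h.cP x)

theorem d_TP (h : Dt k δ Ω s P G) (l i j : Fin n) (x : V n) :
    pdm l (TP s P i j) x = ((pd l (fun x => s x i j) x : ℝ) : ℂ) • P x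
      + (s x i j : ℂ) • pdm l P x := dsmul (h.ss i j) h.sP l x

theorem eb_dTP (h : Dt (k + 1) δ Ω s P G) (l i j : Fin n) (x : V n) :
    Eb (2 * ((1 + δ) * δ)) (pdm l (TP s P i j) x) := by
  rw [d_TP h]
  have h1 : Eb (δ * (1 + δ)) (((pd l (fun x => s x i j) x : ℝ) : ℂ) • P x) :=
    Eb.smul (cl_zer (abs_ds h.ss (h.cs i j) l) x) (eb_near h.cP x)
  have h2 : Eb ((1 + δ) * δ) ((s x i j : ℂ) • pdm l P x) :=
    Eb.smul (abs_s (h.cs i j) x) (eb_of (eb_near1 h.sP h.cP l) x)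
  exact (h1.add h2).mono (by ring_nf; rfl)

theorem eb_kp (h : Dt k δ Ω s P G) (i : Fin n) (x : V n) :
    Eb (n * ((1 + δ) * δ)) (kp s G i x) :=
  Eb.sumn fun j => Eb.smul (abs_s (h.cs i j) x) (eb_of (h.cG j) x)

end Vale.Agent.P088.PJ.H935
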