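import Vale.Agent.P088.R2.H551.V.Spec
import Vale.Agent.P088.R2.H935.V.Ebd

/-!
# P088, two arbitrary pairs, row QB: the pointwise bound of `q = κ₂ - κ₁`
-/

open MeasureTheory Set
open scoped ContDiff Matrix

noncomputable section

namespace Vale.Agent.P088.PJ.H935

open Vale.Agent.P088.LR Vale.Agent.P088.LR.U Vale.Agent.P088.LR.H158

variable {n N : ℕ}

section RPs

variable {k : ℕ} {δ : ℝ} {Ω : Set (V n)} {s₁ s₂ : MF n} {P₁ P₂ : MC n N}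
  {G₁ G₂ Y D : Fin n → MC n N}

/-- The derivative of the flux. -/
theorem d_Fl (h : RP k δ Ω s₁ s₂ P₁ P₂ G₁ G₂ Y D) (a i l : Fin n) (x : V n) :
    pdm l (Fl s₁ s₂ P₁ P₂ Y D a i) x = ∑ j, ((pdm l (Zt s₁ s₂ P₁ P₂ i j) x * pdm j (Y a) x
      + Zt s₁ s₂ P₁ P₂ i j x * pdm l (pdm j (Y a)) x)
      + (pdm l (TP s₂ P₂ i j) x * pdm j (D a) x
      + TP s₂ P₂ i j x * pdm l (pdm j (D a)) x)) := by
  unfold Fl
  rw [dsum fun j => sadd (smul' (sZ h i j) (spdm (h.sY a) j)) (smul' (sT2 h i j)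
    (spdm (h.sD a) j))]
  refine Finset.sum_congr rfl fun j _ => ?_
  rw [dadd (smul' (sZ h i j) (spdm (h.sY a) j)) (smul' (sT2 h i j) (spdm (h.sD a) j)),
    dmul (sZ h i j) (spdm (h.sY a) j), dmul (sT2 h i j) (spdm (h.sD a) j)]

/-- The bound of `E_a`. -/
theorem eb_Ea (h : RP 3 δ Ω s₁ s₂ P₁ P₂ G₁ G₂ Y D) (hδ0 : 0 ≤ δ) (hδ1 : δ ≤ 1) {J : ℝ}
    (hJ : 0 ≤ J) (hZ : ∀ i j, ClC 1 J (Zt s₁ s₂ P₁ P₂ i j)) (hD : ∀ a, ClC 2 J (D a))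
    (a : Fin n) (x : V n) : Eb (13 * n * n * N * J) (Ea s₁ s₂ P₁ P₂ G₂ Y D a x) := by
  have e1 : ∀ i j, Eb (N * (J * 2)) (pdm i (Zt s₁ s₂ P₁ P₂ i j) x * pdm j (Y a) x) := fun i j =>
    Eb.mul hJ (eb_of (clC_pd (sZ h i j) (hZ i j) i) x)
      ((eb_dY (h.sY a) (h.cY a) j x).mono (by linarith))
  have e2 : ∀ i j, Eb (N * (J * 1)) (Zt s₁ s₂ P₁ P₂ i j x * pdm i (pdm j (Y a)) x) := fun i j =>
    Eb.mul hJ (eb_of (hZ i j) x) ((eb_of (cY2 (h.sY a) (h.cY a) i j) x).mono hδ1)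
  have e3 : ∀ i j, Eb (N * (4 * J)) (pdm i (TP s₂ P₂ i j) x * pdm j (D a) x) := fun i j =>
    Eb.mul (by norm_num) ((eb_dTP h.d₂ i i j x).mono (by nlinarith))
      (eb_of (clC_pd (h.sD a) (hD a) j) x)
  have e4 : ∀ i j, Eb (N * (4 * J)) (TP s₂ P₂ i j x * pdm i (pdm j (D a)) x) := fun i j =>
    Eb.mul (by norm_num) ((eb_TP h.d₂ i j x).mono (by nlinarith))
      (eb_of (clC_pd (spdm (h.sD a) j) (clC_pd (h.sD a) (hD a) j) i) x)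
  have e5 : ∀ i, Eb (N * ((n * 2) * J)) (kp s₂ G₂ i x * pdm i (D a) x) := fun i =>
    Eb.mul (by positivity) ((eb_kp h.d₂ i x).mono (mul_le_mul_of_nonneg_left (by nlinarith)
      (Nat.cast_nonneg n))) (eb_of (clC_pd (h.sD a) (hD a) i) x)
  have e6 : ∀ i, Eb (n * (N * (J * 2) + N * (J * 1) + (N * (4 * J) + N * (4 * J))))
      (pdm i (Fl s₁ s₂ P₁ P₂ Y D a i) x) := by
    intro i
    rw [d_Fl h]
    exact Eb.sumn fun j => ((e1 i j).add (e2 i j)).add ((e3 i j).add (e4 i j))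
  exact ((Eb.sumn e6).add (Eb.sumn e5)).mono (le_of_eq (by ring))

end RPs

/-- **Row QB** -/
theorem rowQB : RowBI → RowQB := by
  intro hBI n N
  obtain ⟨C₀, δ₀, hC₀, hδ₀, hbi⟩ := hBI n N 0
  refine ⟨3, n * (N * (13 * n * n * N * (1 + C₀))) + 1, min δ₀ 1, by positivity,
    lt_min hδ₀ one_pos, ?_⟩
  intro Ω s₁ s₂ P₁ P₂ G₁ G₂ Y D h J hJ hZ hD i x
  have hδ0 : 0 ≤ min δ₀ 1 := (lt_min hδ₀ one_pos).le
  have hδ1 : min δ₀ 1 ≤ 1 := min_le_right _ _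
  obtain ⟨Γ, hΓs, hΓ1, hΓ2, hΓ3⟩ := hbi Y h.sY (min δ₀ 1) hδ0 (min_le_left _ _)
    (fun a => clC_mono (h.cY a) (by norm_num) le_rfl)
  have hG : ∀ a, Eb (1 + C₀) (Γ a i x) := by
    intro a
    have h1 := (eb_ite (N := N) a i).add (eb_of (hΓ3 a i) x)
    rw [add_sub_cancel] at h1
    exact h1.mono (by nlinarith)
  rw [gidb h hΓ1]
  have h2 := (Eb.sumn fun a => (eb_Ea h hδ0 hδ1 hJ hZ hD a x).mul (by positivity) (hG a)).neg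
  exact h2.mono (by nlinarith)

end Vale.Agent.P088.PJ.H935
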