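import Vale.Agent.P088.R2.H904.V.Sub

/-!
# P088, row WT: the weight in the old and the new coordinates
-/

open MeasureTheory Set
open scoped ContDiff Matrix

noncomputable section

namespace Vale.Agent.P088.PJ.H935

open Vale.Agent.P088.LR Vale.Agent.P088.PJ.H904
open Vale.Agent.P088.HY (VV Bs Bn Un)

variable {n : ℕ}

theorem sq_nn (x : V n) : 0 ≤ HY.sq x := Finset.sum_nonneg fun _ _ => sq_nonneg _

theorem nrm_le (x : V n) : ‖x‖ ^ 2 ≤ HY.sq x := by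
  have h0 := sq_nn x
  have h1 : ‖x‖ ≤ Real.sqrt (HY.sq x) := by
    refine (pi_norm_le_iff_of_nonneg (Real.sqrt_nonneg _)).2 fun j => ?_
    rw [Real.norm_eq_abs]
    apply Real.abs_le_sqrt
    exact Finset.single_le_sum (f := fun j => x j ^ 2) (fun _ _ => sq_nonneg _) (Finset.mem_univ j)
  calc ‖x‖ ^ 2 ≤ Real.sqrt (HY.sq x) ^ 2 := by gcongr
    _ = HY.sq x := Real.sq_sqrt h0

theorem sq_le_nrm (x : V n) : HY.sq x ≤ n * ‖x‖ ^ 2 := by
  have : ∀ j ∈ Finset.univ, x j ^ 2 ≤ ‖x‖ ^ 2 := fun j _ => by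
    have := norm_le_pi_norm x j
    rw [Real.norm_eq_abs] at this
    rw [← sq_abs]
    gcongr
  calc HY.sq x ≤ ∑ _j : Fin n, ‖x‖ ^ 2 := Finset.sum_le_sum this
    _ = n * ‖x‖ ^ 2 := by simp

theorem cl_nrm {δ : ℝ} {w : V n → V n} (h : Cl 1 δ w) (x : V n) : ‖w x‖ ≤ δ := by
  have := h 0 (by norm_num) x
  rwa [norm_iteratedFDeriv_zero] at this

theorem cl_lip {δ : ℝ} {w : V n → V n} (hs : ContDiff ℝ ∞ w) (h : Cl 1 δ w) (x y : V n) :
    ‖w x - w y‖ ≤ δ * ‖x - y‖ := by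
  refine Convex.norm_image_sub_le_of_norm_fderiv_le (𝕜 := ℝ) (s := univ)
    (fun z _ => (hs.differentiable (by simp)).differentiableAt) (fun z _ => ?_) convex_univ
    (mem_univ _) (mem_univ _)
  have := h 1 le_rfl z
  rwa [norm_iteratedFDeriv_one] at this

/-- sum of three, squares -/
theorem sq3 (a b c : V n) : HY.sq (a + b + c) ≤ 3 * (HY.sq a + HY.sq b + HY.sq c) := by
  unfold HY.sq
  rw [← Finset.sum_add_distrib, ← Finset.sum_add_distrib, Finset.mul_sum]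
  refine Finset.sum_le_sum fun j _ => ?_
  simp only [Pi.add_apply]
  nlinarith [sq_nonneg (a j - b j), sq_nonneg (b j - c j), sq_nonneg (a j - c j)]

theorem sq_smul (t : ℝ) (a : V n) : HY.sq (t • a) = t ^ 2 * HY.sq a := by
  unfold HY.sq
  rw [Finset.mul_sum]
  exact Finset.sum_congr rfl fun j _ => by simp only [Pi.smul_apply, smul_eq_mul]; ring

theorem sq_neg' (a : V n) : HY.sq (-a) = HY.sq a := by
  unfold HY.sq
  exact Finset.sum_congr rfl fun j _ => by simp only [Pi.neg_apply]; ring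

/-- Minkowski in the weak form `|a + b|² ≤ (1 + t) |a|² + (1 + 1 / t) |b|²`. -/
theorem sq2 {t : ℝ} (ht : 0 < t) (a b : V n) :
    HY.sq (a + b) ≤ (1 + t) * HY.sq a + (1 + 1 / t) * HY.sq b := by
  unfold HY.sq
  rw [Finset.mul_sum, Finset.mul_sum, ← Finset.sum_add_distrib]
  refine Finset.sum_le_sum fun j _ => ?_
  simp only [Pi.add_apply]
  have h1 : (1 + t) * a j ^ 2 + (1 + 1 / t) * b j ^ 2 - (a j + b j) ^ 2 =
      (t * a j - b j) ^ 2 / t := by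
    field_simp
    ring
  have h2 : 0 ≤ (t * a j - b j) ^ 2 / t := by positivity
  linarith

/-- Comparison of the differences. -/
theorem cmp {δ η : ℝ} (hδ1 : 6 * n * δ ^ 2 ≤ 1) {w₁ w₂ : V n → V n}
    (hs : ContDiff ℝ ∞ w₁) (h : Cl 1 δ w₁) (hd : ∀ x, ‖w₁ x - w₂ x‖ ≤ η) (x y : V n) :
    HY.sq (x - y) ≤ 27 / 2 * HY.sq ((2 / 3 : ℝ) • (x + w₁ x) - (2 / 3 : ℝ) • (y + w₂ y)) +
      6 * n * η ^ 2 ∧
    HY.sq ((2 / 3 : ℝ) • (x + w₁ x) - (2 / 3 : ℝ) • (y + w₂ y)) ≤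
      2 * HY.sq (x - y) + 4 / 3 * n * η ^ 2 := by
  have ha : HY.sq (w₁ x - w₁ y) ≤ n * δ ^ 2 * HY.sq (x - y) := by
    have h1 := cl_lip hs h x y
    have h2 := nrm_le (x - y)
    calc HY.sq (w₁ x - w₁ y) ≤ n * ‖w₁ x - w₁ y‖ ^ 2 := sq_le_nrm _
      _ ≤ n * (δ * ‖x - y‖) ^ 2 := by gcongr
      _ = n * δ ^ 2 * ‖x - y‖ ^ 2 := by ring
      _ ≤ n * δ ^ 2 * HY.sq (x - y) := by gcongr
  have hb : HY.sq (w₁ y - w₂ y) ≤ n * η ^ 2 := by
    calc HY.sq (w₁ y - w₂ y) ≤ n * ‖w₁ y - w₂ y‖ ^ 2 := sq_le_nrm _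
      _ ≤ n * η ^ 2 := by gcongr; exact hd y
  have hxy := sq_nn (x - y)
  have e1 : x - y = (3 / 2 : ℝ) • ((2 / 3 : ℝ) • (x + w₁ x) - (2 / 3 : ℝ) • (y + w₂ y)) +
      -(w₁ x - w₁ y) + -(w₁ y - w₂ y) := by
    ext j
    simp only [Pi.add_apply, Pi.sub_apply, Pi.smul_apply, Pi.neg_apply, smul_eq_mul]
    ring
  have e2 : (2 / 3 : ℝ) • (x + w₁ x) - (2 / 3 : ℝ) • (y + w₂ y) =
      (2 / 3 : ℝ) • ((x - y) + (w₁ x - w₁ y) + (w₁ y - w₂ y)) := by
    ext j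
    simp only [Pi.add_apply, Pi.sub_apply, Pi.smul_apply, smul_eq_mul]
    ring
  have hnd : (n : ℝ) * δ ^ 2 * HY.sq (x - y) ≤ 1 / 6 * HY.sq (x - y) := by
    have : (n : ℝ) * δ ^ 2 ≤ 1 / 6 := by linarith
    gcongr
  constructor
  · have h1 := sq3 ((3 / 2 : ℝ) • ((2 / 3 : ℝ) • (x + w₁ x) - (2 / 3 : ℝ) • (y + w₂ y)))
      (-(w₁ x - w₁ y)) (-(w₁ y - w₂ y))
    rw [← e1, sq_smul, sq_neg', sq_neg'] at h1
    nlinarith
  · rw [e2, sq_smul]
    have h1 := sq3 (x - y) (w₁ x - w₁ y) (w₁ y - w₂ y)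
    nlinarith

/-- the image of a ball under `x ↦ 2/3 (x + w x)` -/
theorem img {δ : ℝ} (hδ1 : 100 * n * δ ^ 2 ≤ 1 / 10000) {w : V n → V n}
    (h : Cl 1 δ w) (x : V n) :
    HY.sq ((2 / 3 : ℝ) • (x + w x)) ≤ 4 / 9 * (51 / 50 * HY.sq x + 1 / 10000) := by
  rw [sq_smul]
  have h1 := sq2 (t := 1 / 50) (by norm_num) x (w x)
  have h2 : HY.sq (w x) ≤ 1 / 1000000 := by
    calc HY.sq (w x) ≤ n * ‖w x‖ ^ 2 := sq_le_nrm _
      _ ≤ n * δ ^ 2 := by gcongr; exact cl_nrm h x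
      _ ≤ 1 / 1000000 := by linarith
  nlinarith

/-- `t^2 e^{-t} ≤ 2` -/
theorem exp_aux {t : ℝ} (ht : 0 ≤ t) : t ^ 2 * Real.exp (-t) ≤ 2 := by
  have h1 := Real.quadratic_le_exp_of_nonneg ht
  have h2 : Real.exp (-t) * Real.exp t = 1 := by rw [← Real.exp_add]; simp
  have h3 := Real.exp_pos (-t)
  have h4 : t ^ 2 ≤ 2 * Real.exp t := by nlinarith
  calc t ^ 2 * Real.exp (-t) ≤ 2 * Real.exp t * Real.exp (-t) := by gcongr
    _ = 2 := by rw [mul_assoc, mul_comm (Real.exp t), h2, mul_one]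

/-- first factor -/
theorem p1 {r s D τ : ℝ} (hr : 0 < r) (hr1 : r ≤ 1 / 2) (hs : 2 / 5 ≤ s) (hs1 : s ≤ 1 / 2)
    (hD : 0 ≤ D) (hτ : 1 ≤ τ) :
    r ^ 4 * (Real.exp (-(2 * τ * (D / (2 * r * s)))) / (r * s) ^ 2) ≤
      16 * Real.exp (-(2 * τ * D)) := by
  have hs0 : 0 < s := by linarith
  have h1 : r ^ 4 * (Real.exp (-(2 * τ * (D / (2 * r * s)))) / (r * s) ^ 2) =
      r ^ 2 / s ^ 2 * Real.exp (-(2 * τ * (D / (2 * r * s)))) := by
    field_simp
  rw [h1]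
  have h2 : r ^ 2 / s ^ 2 ≤ 16 := by
    rw [div_le_iff₀ (by positivity)]
    nlinarith
  have h3 : D ≤ D / (2 * r * s) := by
    rw [le_div_iff₀ (by positivity)]
    have : 2 * r * s ≤ 1 := by nlinarith
    nlinarith
  have h4 : Real.exp (-(2 * τ * (D / (2 * r * s)))) ≤ Real.exp (-(2 * τ * D)) := by
    apply Real.exp_le_exp.2
    have : 2 * τ * D ≤ 2 * τ * (D / (2 * r * s)) := by gcongr
    linarith
  gcongr

/-- second factor -/
theorem p2 {r s D τ : ℝ} (hr : 0 < r) (hr1 : r ≤ 1 / 2) (hs : 2 / 5 ≤ s) (hs1 : s ≤ 1 / 2)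
    (hD : 0 ≤ D) (hτ : 1 ≤ τ) (hrD : r < 1 / 8 → 1 / 5 ≤ D) :
    s ^ 4 * (Real.exp (-(2 * τ * (D / (2 * r * s)))) / (r * s) ^ 2) ≤
      16 * Real.exp (-(2 * τ * D)) := by
  have hs0 : 0 < s := by linarith
  have h1 : s ^ 4 * (Real.exp (-(2 * τ * (D / (2 * r * s)))) / (r * s) ^ 2) =
      s ^ 2 / r ^ 2 * Real.exp (-(2 * τ * (D / (2 * r * s)))) := by
    field_simp
  rw [h1]
  have hDr : D / r ≤ D / (2 * r * s) := by
    apply div_le_div_of_nonneg_left hD (by positivity)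
    nlinarith
  have h2D : 2 * D ≤ D / (2 * r * s) := by
    rw [le_div_iff₀ (by positivity)]
    have : 2 * r * s ≤ 1 / 2 := by nlinarith
    nlinarith
  have h3 : Real.exp (-(2 * τ * (D / (2 * r * s)))) ≤
      Real.exp (-(D / r)) * Real.exp (-(2 * τ * D)) := by
    rw [← Real.exp_add]
    apply Real.exp_le_exp.2
    have h5 : τ * (2 * D) ≤ τ * (D / (2 * r * s)) := by gcongr
    have h6 : D / r ≤ τ * (D / (2 * r * s)) := by
      have h7 : 0 ≤ D / (2 * r * s) := by positivity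
      nlinarith
    nlinarith
  have h4 : s ^ 2 / r ^ 2 * Real.exp (-(D / r)) ≤ 16 := by
    rcases lt_or_ge r (1 / 8) with h | h
    · have hD5 := hrD h
      have h8 : Real.exp (-(D / r)) ≤ Real.exp (-(1 / (5 * r))) := by
        apply Real.exp_le_exp.2
        have : 1 / (5 * r) ≤ D / r := by
          rw [div_le_div_iff₀ (by positivity) hr]
          nlinarith
        linarith
      have h9 := exp_aux (t := 1 / (5 * r)) (by positivity)
      calc s ^ 2 / r ^ 2 * Real.exp (-(D / r)) ≤ (1 / 2) ^ 2 / r ^ 2 *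
            Real.exp (-(1 / (5 * r))) := by gcongr
        _ = 25 / 4 * ((1 / (5 * r)) ^ 2 * Real.exp (-(1 / (5 * r)))) := by
          field_simp
          ring
        _ ≤ 25 / 4 * 2 := by gcongr
        _ ≤ 16 := by norm_num
    · have h8 : Real.exp (-(D / r)) ≤ 1 := by
        apply Real.exp_le_one_iff.2
        have : 0 ≤ D / r := by positivity
        linarith
      have h9 : s ^ 2 / r ^ 2 ≤ 16 := by
        rw [div_le_iff₀ (by positivity)]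
        nlinarith
      calc s ^ 2 / r ^ 2 * Real.exp (-(D / r)) ≤ 16 * 1 := by gcongr
        _ = 16 := by norm_num
  calc s ^ 2 / r ^ 2 * Real.exp (-(2 * τ * (D / (2 * r * s))))
      ≤ s ^ 2 / r ^ 2 * (Real.exp (-(D / r)) * Real.exp (-(2 * τ * D))) := by gcongr
    _ = (s ^ 2 / r ^ 2 * Real.exp (-(D / r))) * Real.exp (-(2 * τ * D)) := by ring
    _ ≤ 16 * Real.exp (-(2 * τ * D)) := by gcongr

theorem rowWT : RowWT := by
  intro n
  have hn0 : (0 : ℝ) ≤ n := Nat.cast_nonneg n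
  refine ⟨16 * Real.exp (1000 * (n + 1)), 1 / 10, 1 / (1000 * (n + 1)), by positivity,
    by norm_num, by positivity, ?_⟩
  intro w₁ w₂ K₁ K₂ hD₁ hD₂ hc₁ hc₂ η τ hη hd hτ hτη
  set δ : ℝ := 1 / (1000 * (n + 1)) with hδ
  have hnδ : (n : ℝ) * δ ^ 2 ≤ 1 / 1000000 := by
    rw [hδ, div_pow, mul_div_assoc', div_le_div_iff₀ (by positivity) (by norm_num)]
    nlinarith
  have hδ6 : 6 * n * δ ^ 2 ≤ 1 := by linarith
  have hδ1 : 100 * n * δ ^ 2 ≤ 1 / 10000 := by linarith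
  have hη1 : η ≤ 1 := by nlinarith
  have hτη2 : τ * η ^ 2 ≤ 1 := by nlinarith
  constructor
  · rintro ⟨X, Y⟩ ⟨hX, hY⟩ hy
    simp only [Ps] at hy ⊢
    set x : V n := K₁ ((3 / 2 : ℝ) • X) with hx
    set y : V n := K₂ ((3 / 2 : ℝ) • Y) with hyd
    have eX : (2 / 3 : ℝ) • (x + w₁ x) = X := by
      rw [hx, hD₁.r, smul_smul]
      norm_num
    have eY : (2 / 3 : ℝ) • (y + w₂ y) = Y := by
      rw [hyd, hD₂.r, smul_smul]
      norm_num
    obtain ⟨h1, -⟩ := cmp hδ6 hD₁.sw hc₁ hd x y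
    rw [eX, eY] at h1
    have hY2 := img hδ1 hc₂ y
    rw [eY] at hY2
    have hy' : HY.sq y ≤ 1 / 4 := hy
    have hX' : HY.sq X < 1 := hX
    have hX0 := sq_nn X
    have hY0 := sq_nn Y
    have hD0 := sq_nn (X - Y)
    have hd0 := sq_nn (x - y)
    have hr : 0 < HY.rr X := by unfold HY.rr; linarith
    have hr1 : HY.rr X ≤ 1 / 2 := by unfold HY.rr; linarith
    have hs : 2 / 5 ≤ HY.rr Y := by unfold HY.rr; linarith
    have hs1 : HY.rr Y ≤ 1 / 2 := by unfold HY.rr; linarith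
    have hrD : HY.rr X < 1 / 8 → 1 / 5 ≤ HY.sq (X - Y) := by
      intro h
      have h2 : 3 / 4 < HY.sq X := by unfold HY.rr at h; linarith
      have h3 := sq2 (t := 1) one_pos (X - Y) Y
      rw [sub_add_cancel] at h3
      linarith
    have hexp : 16 * Real.exp (-(2 * τ * HY.sq (X - Y))) ≤
        16 * Real.exp (1000 * (n + 1)) * Real.exp (-(1 / 10 * τ * HY.sq (x - y))) := by
      rw [mul_assoc (16 : ℝ), ← Real.exp_add]
      have : -(2 * τ * HY.sq (X - Y)) ≤ 1000 * (n + 1) + -(1 / 10 * τ * HY.sq (x - y)) := by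
        have h2 : τ * HY.sq (x - y) ≤ τ * (27 / 2 * HY.sq (X - Y) + 6 * n * η ^ 2) := by gcongr
        have h3 : (n : ℝ) * (τ * η ^ 2) ≤ n * 1 := by gcongr
        have h4 : 0 ≤ τ * HY.sq (X - Y) := by positivity
        nlinarith
      have := Real.exp_le_exp.2 this
      linarith
    have e : HY.wT τ (X, Y) = Real.exp (-(2 * τ * (HY.sq (X - Y) /
        (2 * HY.rr X * HY.rr Y)))) / (HY.rr X * HY.rr Y) ^ 2 := by
      unfold HY.wT HY.uu
      simp only [add_sub_cancel_left]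
    constructor
    · show HY.rr X ^ 4 * HY.wT τ (X, Y) ≤ _
      rw [e]
      exact (p1 hr hr1 hs hs1 hD0 hτ).trans hexp
    · show HY.rr Y ^ 4 * HY.wT τ (X, Y) ≤ _
      rw [e]
      exact (p2 hr hr1 hs hs1 hD0 hτ hrD).trans hexp
  · rintro ⟨x, y⟩ ⟨hx, hy⟩ hxy
    simp only at hxy
    have hx' : HY.sq x < 1 := hx
    have hy' : HY.sq y < 1 := hy
    unfold HY.wT HY.uu Ph
    simp only [add_sub_cancel_left]
    obtain ⟨-, h1⟩ := cmp hδ6 hD₁.sw hc₁ hd x y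
    have hX2 := img hδ1 hc₁ x
    have hY2 := img hδ1 hc₂ y
    set X := (2 / 3 : ℝ) • (x + w₁ x) with hX
    set Y := (2 / 3 : ℝ) • (y + w₂ y) with hY
    have hX0 := sq_nn X
    have hY0 := sq_nn Y
    have hD0 := sq_nn (X - Y)
    have hr : 1 / 4 ≤ HY.rr X := by unfold HY.rr; linarith
    have hr1 : HY.rr X ≤ 1 / 2 := by unfold HY.rr; linarith
    have hs : 1 / 4 ≤ HY.rr Y := by unfold HY.rr; linarith
    have hs1 : HY.rr Y ≤ 1 / 2 := by unfold HY.rr; linarith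
    have hq : HY.sq (X - Y) / (2 * HY.rr X * HY.rr Y) ≤ 8 * HY.sq (X - Y) := by
      rw [div_le_iff₀ (by positivity)]
      have : 1 / 8 ≤ 2 * HY.rr X * HY.rr Y := by nlinarith
      nlinarith
    have hτD : τ * HY.sq (X - Y) ≤ 34 * n := by
      have h2 : τ * HY.sq (X - Y) ≤ τ * (2 * HY.sq (x - y) + 4 / 3 * n * η ^ 2) := by gcongr
      have h3 : (n : ℝ) * (τ * η ^ 2) ≤ n * 1 := by gcongr
      nlinarith
    have h5 : Real.exp (-(1000 * (n + 1))) ≤ Real.exp (-(2 * τ * (HY.sq (X - Y) /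
        (2 * HY.rr X * HY.rr Y)))) := by
      apply Real.exp_le_exp.2
      have h6 : 2 * τ * (HY.sq (X - Y) / (2 * HY.rr X * HY.rr Y)) ≤
          2 * τ * (8 * HY.sq (X - Y)) := by gcongr
      nlinarith
    have h6 : (HY.rr X * HY.rr Y) ^ 2 ≤ 1 := by
      have h7 : HY.rr X * HY.rr Y ≤ 1 := by nlinarith
      have h8 : 0 ≤ HY.rr X * HY.rr Y := by positivity
      nlinarith
    have h7 : 0 < (HY.rr X * HY.rr Y) ^ 2 := by positivity
    have h8 : Real.exp (-(1000 * (n + 1))) ≤ Real.exp (-(2 * τ * (HY.sq (X - Y) /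
        (2 * HY.rr X * HY.rr Y)))) / (HY.rr X * HY.rr Y) ^ 2 := by
      rw [le_div_iff₀ h7]
      calc Real.exp (-(1000 * (n + 1))) * (HY.rr X * HY.rr Y) ^ 2
          ≤ Real.exp (-(1000 * (n + 1))) * 1 := by gcongr
        _ ≤ _ := by rw [mul_one]; exact h5
    have h9 : Real.exp (1000 * ((n : ℝ) + 1)) * Real.exp (-(1000 * (n + 1))) = 1 := by
      rw [← Real.exp_add]
      simp
    have h10 := Real.exp_pos (1000 * ((n : ℝ) + 1))
    calc (1 : ℝ) ≤ 16 * (Real.exp (1000 * ((n : ℝ) + 1)) * Real.exp (-(1000 * (n + 1)))) := by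
          rw [h9]; norm_num
      _ = 16 * Real.exp (1000 * (n + 1)) * Real.exp (-(1000 * (n + 1))) := by ring
      _ ≤ _ := by gcongr

end Vale.Agent.P088.PJ.H935
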